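import Vale.Agent.P267M.Jac

/-! P267: the canonical bundle is a holomorphic line bundle. -/

open scoped Manifold ContDiff Topology
open Filter Set

noncomputable section

namespace Vale.Agent.P267

open Vale.Agent.P267M

variable {X : Type} [TopologicalSpace X] [ChartedSpace C2 X] [IsManifold 𝓘(ℂ, C2) ω X]

theorem cn_an {p q x : X} (hp : x ∈ (chartAt C2 p).source) (hq : x ∈ (chartAt C2 q).source) :
    AnalyticAt ℂ (chartAt C2 q ∘ (chartAt C2 p).symm) (chartAt C2 p x) :=
  jac_an (jac_adm p) hp (jac_adm q x hq).1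

theorem cn_chain {p q r x : X} (hp : x ∈ (chartAt C2 p).source) (hq : x ∈ (chartAt C2 q).source)
    (hr : x ∈ (chartAt C2 r).source) :
    (fderiv ℂ (chartAt C2 r ∘ (chartAt C2 p).symm) (chartAt C2 p x)).det =
      (fderiv ℂ (chartAt C2 q ∘ (chartAt C2 p).symm) (chartAt C2 p x)).det *
        (fderiv ℂ (chartAt C2 r ∘ (chartAt C2 q).symm) (chartAt C2 q x)).det := by
  refine jac_chain (cn_an hq hr) (cn_an hp hq)
    (by simp only [Function.comp_apply, (chartAt C2 p).left_inv hp]) ?_
  filter_upwards [((chartAt C2 p).tendsto_symm hp).eventually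
    ((chartAt C2 q).eventually_left_inverse hq)] with y hy
  simp only [Function.comp_apply] at hy ⊢
  rw [hy]

theorem cn_ne {p q x : X} (hp : x ∈ (chartAt C2 p).source) (hq : x ∈ (chartAt C2 q).source) :
    (fderiv ℂ (chartAt C2 q ∘ (chartAt C2 p).symm) (chartAt C2 p x)).det ≠ 0 := by
  have h := cn_chain hp hq hp
  have e : (chartAt C2 p ∘ (chartAt C2 p).symm) =ᶠ[𝓝 (chartAt C2 p x)] id :=
    (chartAt C2 p).eventually_right_inverse' hp
  rw [e.fderiv_eq, fderiv_id] at h
  exact left_ne_zero_of_mul_eq_one (h.symm.trans LinearMap.det_id)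

theorem canon_hol : IsBundle HolAt (canon X) := fun p => by
  filter_upwards [chart_source_mem_nhds C2 p] with q hq
  have hq' := mem_chart_source C2 q
  refine ⟨cn_ne hq hq', ?_⟩
  have h1 := jac_hol (jac_adm p) hq (det_an (cn_an hq hq'))
  refine AnalyticAt.congr h1 ?_
  filter_upwards [((chartAt C2 q).tendsto_symm hq').eventually
    (inter_mem ((chartAt C2 p).open_source.mem_nhds hq) (chart_source_mem_nhds C2 q))] with z hz
  simp only [Function.comp_apply, Pi.div_apply, canon]
  rw [cn_chain hz.1 hz.2 (mem_chart_source C2 _),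
    mul_div_cancel_right₀ _ (cn_ne hz.2 (mem_chart_source C2 _))]

end Vale.Agent.P267
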