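import Vale.Agent.P267F.Stmt
import Vale.Agent.P267.Stmt5
import Vale.Agent.P267.GC

/-! P267: from the final statement to the working definitions. -/

open scoped Manifold ContDiff Topology
open Filter Matrix

noncomputable section

namespace Vale.Agent.P267

/-- The intersection form and the Riemann-Roch formula, with topological Euler number `e`. -/
structure SForm (X : Type) [TopologicalSpace X] [ChartedSpace C2 X] {m : ℕ}
    (Q : Matrix (Fin m) (Fin m) ℤ) (c : (X → X → ℂ) → Fin m → ℤ) (e : ℤ) : Prop where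
  symm : Q.IsSymm
  unit : IsUnit Q.det
  onto : ∀ x, ∃ u, IsBundle SmAt u ∧ c u = x
  pair : ∀ (u v : X → X → ℂ) (θ θ' : X → X → C2 →L[ℝ] ℂ), IsBundle SmAt u → IsBundle SmAt v →
    IsConnection id u θ → IsConnection id v θ' →
    ∀ (l : ℕ) (P : Fin l → OpenPartialHomeomorph X C2) (ψ : Fin l → X → ℝ),
      (∀ a, HolChart (P a)) → (∀ a, Continuous (ψ a)) → (∀ a, tsupport (ψ a) ⊆ (P a).source) →
      (∀ x, ∑ a, ψ a x = 1) → pairing P ψ θ θ' = ((c u ⬝ᵥ Q *ᵥ c v : ℤ) : ℂ)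
  rr : ∀ u : X → X → ℂ, IsBundle HolAt u → ∃ d : ℤ, Euler id u (canon X) d ∧
    12 * d = 6 * (c u ⬝ᵥ Q *ᵥ c u - c u ⬝ᵥ Q *ᵥ c (canon X)) +
      c (canon X) ⬝ᵥ Q *ᵥ c (canon X) + e

variable {X : Type} [TopologicalSpace X] [ChartedSpace C2 X]

theorem br_H0 (u : X → X → ℂ) : P267F.H0 u = H0 id u := by
  unfold P267F.H0 H0
  congr 1
  ext s
  exact ⟨fun h => ⟨rfl, h⟩, fun h => h.2⟩

theorem br_euler {u : X → X → ℂ} {d : ℤ} (h : P267F.Euler u d) : Euler id u (canon X) d := by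
  have e1 : Z1 id u = P267F.Z1 u := by
    unfold P267F.Z1 Z1
    congr 1
    ext s
    exact ⟨fun h => h.2, fun h => ⟨rfl, h⟩⟩
  have e2 : B1 id u = P267F.B1 u := by
    unfold P267F.B1 B1
    congr 1
    ext f
    exact exists_congr fun s => ⟨fun h => h.2, fun h => ⟨rfl, h⟩⟩
  unfold Euler H1
  rw [e1, e2, ← br_H0, ← br_H0]
  exact h

theorem br_class (h : P267F.IsClassVII X) : IsClassVII X :=
  ⟨h.1, fun m hm => (br_H0 _).symm.trans (h.2 m hm)⟩

theorem br_class' (h : IsClassVII X) : P267F.IsClassVII X :=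
  ⟨h.1, fun m hm => (br_H0 _).trans (h.2 m hm)⟩

theorem br_hol_sm {u : X → X → ℂ} (h : IsBundle HolAt u) : IsBundle SmAt u := fun p =>
  (h p).mono fun _ hq => ⟨hq.1, hq.2.smAt⟩

theorem sForm_of (hP : P267F.PoincareDuality X) (hR : P267F.RiemannRoch X)
    (hK : IsBundle HolAt (canon X)) : ∃ (Q : Matrix (Fin (secondBetti X)) (Fin (secondBetti X)) ℤ)
      (c : (X → X → ℂ) → Fin (secondBetti X) → ℤ),
      SForm X Q c (2 - 2 * firstBetti X + secondBetti X) := by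
  obtain ⟨Q, c, h1, h2, h3, h4⟩ := hP
  refine ⟨Q, c, h1, h2, h3, fun u v θ θ' hu hv a b l P ψ p1 p2 p3 p4 =>
    h4 u v hu hv θ θ' l P ψ ⟨a.smooth, a.compat⟩ ⟨b.smooth, b.compat⟩ p1 p2 p3 p4, fun u hu => ?_⟩
  obtain ⟨d, e1, e2⟩ := hR u _ _ _ hu (h4 u u (br_hol_sm hu) (br_hol_sm hu))
    (h4 u _ (br_hol_sm hu) (br_hol_sm hK)) (h4 _ _ (br_hol_sm hK) (br_hol_sm hK))
  exact ⟨d, br_euler e1, e2⟩

end Vale.Agent.P267
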