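import Mathlib

/-!
Compact complex surfaces: line bundles in local frames, their cohomology, intersection numbers,
surfaces of class VII, global spherical shells, and the published theorems that are quoted.
-/

open scoped Manifold ContDiff Topology
open Filter Matrix

noncomputable section

namespace Vale.Agent.P267F

abbrev C2 := Fin 2 → ℂ

section Topology
variable (X : Type) [TopologicalSpace X]

variable {X} in
/-- `f` is constant near `p`. -/
def ConstAt (f : X → ℂ) (p : X) : Prop := ∀ᶠ q in 𝓝 p, f q = f p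

/-- Global sections of (all functions) modulo (locally constant functions); `f p` represents the
germ at `p`. -/
def Zc : Submodule ℂ (X → X → ℂ) :=
  Submodule.span ℂ {f | ∀ p, ∀ᶠ q in 𝓝 p, ConstAt (f p - f q) q}

/-- Those that come from a global function. -/
def Bc : Submodule ℂ (X → X → ℂ) :=
  Submodule.span ℂ {f | ∃ s : X → ℂ, ∀ p, ConstAt (f p - s) p}

/-- The first Betti number: the dimension of the first cohomology of the constant sheaf `ℂ`. -/
def b1 : ℕ := Module.finrank ℂ (Zc X ⧸ (Bc X).submoduleOf (Zc X))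

/-- The second Betti number: the rank of the second singular homology group. -/
def b2 : ℕ :=
  Module.finrank ℚ (((AlgebraicTopology.singularHomologyFunctor (ModuleCat ℚ) 2).obj
    (ModuleCat.of ℚ ℚ)).obj (TopCat.of X))

end Topology

/-- The exterior derivative of a one-form on affine space. -/
def extD (A : C2 → C2 →L[ℝ] ℂ) (z v w : C2) : ℂ :=
  fderiv ℝ (fun y => A y w) z v - fderiv ℝ (fun y => A y v) z w

/-- The oriented real basis of affine space. -/
def bs : Fin 4 → C2 :=
  ![Pi.single 0 1, Pi.single 0 Complex.I, Pi.single 1 1, Pi.single 1 Complex.I]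

/-- The product of two two-forms, given by their coefficients, on the oriented basis. -/
def wedge (A B : Fin 4 → Fin 4 → ℂ) : ℂ :=
  A 0 1 * B 2 3 - A 0 2 * B 1 3 + A 0 3 * B 1 2 + A 1 2 * B 0 3 - A 1 3 * B 0 2 + A 2 3 * B 0 1

section Bundles
variable {X : Type} [TopologicalSpace X] [ChartedSpace C2 X]

/-- `f` is holomorphic near `p`. -/
def HolAt (f : X → ℂ) (p : X) : Prop :=
  AnalyticAt ℂ (f ∘ (chartAt C2 p).symm) (chartAt C2 p p)

/-- `f` is smooth near `p`. -/
def SmAt (f : X → ℂ) (p : X) : Prop :=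
  ∀ᶠ z in 𝓝 (chartAt C2 p p), ContDiffAt ℝ ∞ (f ∘ (chartAt C2 p).symm) z

/-- A line bundle of class `R` (holomorphic or smooth). Every fibre is identified with `ℂ` in an
arbitrary way, so a section is a function `s : X → ℂ`; its expression in the local frame chosen
near `p` is `u p * s`. The transition functions `u p / u q` are of class `R`. -/
def IsBundle (R : (X → ℂ) → X → Prop) (u : X → X → ℂ) : Prop :=
  ∀ p, ∀ᶠ q in 𝓝 p, u p q ≠ 0 ∧ R (u p / u q) q

/-- The canonical bundle: a two-form is `s q • dz` at `q`, for the chart `z` at `q`. -/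
def canon (X : Type) [TopologicalSpace X] [ChartedSpace C2 X] : X → X → ℂ := fun p q =>
  (fderiv ℂ (chartAt C2 q ∘ (chartAt C2 p).symm) (chartAt C2 p q)).det

/-- Holomorphic sections. -/
def H0 (u : X → X → ℂ) : Submodule ℂ (X → ℂ) := Submodule.span ℂ {s | ∀ p, HolAt (u p * s) p}

/-- Global sections of (all sections) modulo (holomorphic sections). -/
def Z1 (u : X → X → ℂ) : Submodule ℂ (X → X → ℂ) :=
  Submodule.span ℂ {f | ∀ p, ∀ᶠ q in 𝓝 p, HolAt (u q * (f p - f q)) q}

/-- Those that come from a global section. -/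
def B1 (u : X → X → ℂ) : Submodule ℂ (X → X → ℂ) :=
  Submodule.span ℂ {f | ∃ s : X → ℂ, ∀ p, HolAt (u p * (f p - s)) p}

/-- The first cohomology of `u` has finite dimension and `h⁰(u) - h¹(u) + h⁰(K ⊗ u⁻¹) = d`. -/
def Euler (u : X → X → ℂ) (d : ℤ) : Prop :=
  FiniteDimensional ℂ (Z1 u ⧸ (B1 u).submoduleOf (Z1 u)) ∧ (Module.finrank ℂ (H0 u) : ℤ) -
    Module.finrank ℂ (Z1 u ⧸ (B1 u).submoduleOf (Z1 u)) + Module.finrank ℂ (H0 (canon X / u)) = d

/-- The differential of a function at `x`, in the chart at `x`. -/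
def dAt (f : X → ℂ) (x : X) : C2 →L[ℝ] ℂ :=
  fderiv ℝ (f ∘ (chartAt C2 x).symm) (chartAt C2 x x)

/-- The expression in the chart `P` of a one-form, given at each `x` in the chart at `x`. -/
def inChart (P : OpenPartialHomeomorph X C2) (θ : X → C2 →L[ℝ] ℂ) (z : C2) : C2 →L[ℝ] ℂ :=
  (θ (P.symm z)).comp (fderiv ℝ (chartAt C2 (P.symm z) ∘ P.symm) z)

/-- A holomorphic chart. -/
def HolChart (P : OpenPartialHomeomorph X C2) : Prop :=
  ∀ p ∈ P.source, ∀ f, HolAt f p ↔ AnalyticAt ℂ (f ∘ P.symm) (P p)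

/-- A connection on `u`: `θ p` is the connection form in the frame chosen near `p`. -/
def IsConnection (u : X → X → ℂ) (θ : X → X → C2 →L[ℝ] ℂ) : Prop :=
  (∀ p v, ∀ᶠ z in 𝓝 (chartAt C2 p p),
    ContDiffAt ℝ ∞ (fun y => inChart (chartAt C2 p) (θ p) y v) z) ∧
  ∀ p, ∀ᶠ q in 𝓝 p, ∀ᶠ x in 𝓝 q, θ p x - θ q x = ((u p / u q) x)⁻¹ • dAt (u p / u q) x

/-- The coefficients of the curvature form in the chart `P`. -/
def curv (P : OpenPartialHomeomorph X C2) (θ : X → X → C2 →L[ℝ] ℂ) (z : C2) (a b : Fin 4) : ℂ :=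
  extD (inChart P (θ (P.symm z))) z (bs a) (bs b)

/-- The intersection number of `u` and `v` is `d`: the integral of the product of the first Chern
forms, computed with a partition of unity subordinate to holomorphic charts, is `d`. -/
def Inter (u v : X → X → ℂ) (d : ℤ) : Prop :=
  ∀ (θ θ' : X → X → C2 →L[ℝ] ℂ) (l : ℕ) (P : Fin l → OpenPartialHomeomorph X C2)
    (ψ : Fin l → X → ℝ), IsConnection u θ → IsConnection v θ' → (∀ a, HolChart (P a)) →
    (∀ a, Continuous (ψ a)) → (∀ a, tsupport (ψ a) ⊆ (P a).source) → (∀ x, ∑ a, ψ a x = 1) →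
    -(4 * Real.pi ^ 2 : ℂ)⁻¹ * ∑ a, ∫ z in (P a).target,
      (ψ a ((P a).symm z) : ℂ) * wedge (curv (P a) θ z) (curv (P a) θ' z) = d

/-- A rational curve: the image of a nonconstant holomorphic map from the Riemann sphere. -/
def IsRationalCurve (C : Set X) : Prop :=
  ∃ ν : C(OnePoint ℂ, X), MDifferentiable 𝓘(ℂ, ℂ) 𝓘(ℂ, C2) (fun z : ℂ => ν z) ∧
    (∃ a b, ν a ≠ ν b) ∧ C = Set.range ν

/-- A smooth rational curve of self-intersection `-1`: a rational curve that is the zero set of a
holomorphic section, vanishing to first order, of a line bundle of self-intersection `-1`. -/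
def IsExceptional (C : Set X) : Prop :=
  IsRationalCurve C ∧ ∃ (u : X → X → ℂ) (s : X → ℂ), IsBundle HolAt u ∧
    (∀ p, HolAt (u p * s) p) ∧ (∀ p, s p = 0 ↔ p ∈ C) ∧ (∀ p ∈ C, dAt (u p * s) p ≠ 0) ∧
    Inter u u (-1)

end Bundles

section Surface
variable (X : Type) [TopologicalSpace X] [ChartedSpace C2 X]

/-- A surface: a connected compact complex manifold of dimension two. -/
def IsSurface : Prop :=
  IsManifold 𝓘(ℂ, C2) ω X ∧ T2Space X ∧ CompactSpace X ∧ ConnectedSpace X

/-- Class VII: the first Betti number is one and all plurigenera vanish. -/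
def IsClassVII : Prop := b1 X = 1 ∧ ∀ m : ℕ, 1 ≤ m → H0 (canon X ^ m) = ⊥

/-- Minimal surfaces. -/
def IsMinimal : Prop := ∀ C : Set X, ¬ IsExceptional C

/-- `X` contains `b₂` rational curves. -/
def HasCurves : Prop :=
  ∃ C : Fin (b2 X) → Set X, Function.Injective C ∧ ∀ i, IsRationalCurve (C i)

/-- A global spherical shell: an open set, biholomorphic to a neighbourhood of the unit sphere in
the punctured plane, with connected complement. -/
def HasGSS : Prop :=
  ∃ φ : OpenPartialHomeomorph X C2, HolChart φ ∧ {z : C2 | ∑ j, ‖z j‖ ^ 2 = 1} ⊆ φ.target ∧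
    (0 : C2) ∉ φ.target ∧ IsConnected φ.sourceᶜ

/-- Poincare duality: the Chern classes of smooth line bundles form a unimodular lattice of
rank `b₂`. -/
def PoincareDuality : Prop :=
  ∃ (Q : Matrix (Fin (b2 X)) (Fin (b2 X)) ℤ) (c : (X → X → ℂ) → Fin (b2 X) → ℤ),
    Q.IsSymm ∧ IsUnit Q.det ∧ (∀ x, ∃ u, IsBundle SmAt u ∧ c u = x) ∧
    ∀ u v, IsBundle SmAt u → IsBundle SmAt v → Inter u v (c u ⬝ᵥ Q *ᵥ c v)

/-- The Riemann-Roch formula with Noether's formula. -/
def RiemannRoch : Prop :=
  ∀ (u : X → X → ℂ) (a b k : ℤ), IsBundle HolAt u → Inter u u a → Inter u (canon X) b →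
    Inter (canon X) (canon X) k →
    ∃ d : ℤ, Euler u d ∧ 12 * d = 6 * (a - b) + k + (2 - 2 * b1 X + b2 X)

end Surface

/-- Dloussky, Oeljeklaus, Toma 2003. -/
def DOT : Prop :=
  ∀ (X : Type) [TopologicalSpace X] [ChartedSpace C2 X], IsSurface X → IsClassVII X →
    IsMinimal X → 0 < b2 X → HasCurves X → HasGSS X

end Vale.Agent.P267F
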